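import Vale.Agent.P076.R2.H64.Defs

/-!
# P076, thin sets of times: local smoothing with a Gaussian weight (row K)
-/

open MeasureTheory Complex FourierTransform Filter Topology Set
open scoped ENNReal NNReal

namespace Vale.Agent.P076.R2.H64

open Vale.Agent.P076 Vale.Agent.P076.H791 Vale.Agent.P076.R2.H831

variable {n : ℕ}

/-- Plancherel on the line. -/
lemma planch {h : ℝ → ℂ} (h1 : Integrable h) (h2 : MemLp h 2 volume) :
    ∫⁻ s : ℝ, ‖∫ τ, cexp (((-(2 * Real.pi * (s * τ)) : ℝ) : ℂ) * I) * h τ‖ₑ ^ 2 =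
      ∫⁻ τ, ‖h τ‖ₑ ^ 2 := by
  have key : ∀ f : ℝ → ℂ, eLpNorm f 2 volume ^ 2 = ∫⁻ x, ‖f x‖ₑ ^ 2 := by
    intro f
    rw [eLpNorm_eq_lintegral_rpow_enorm_toReal (by norm_num) (by norm_num)]
    simp only [ENNReal.toReal_ofNat, ENNReal.rpow_ofNat, one_div]
    rw [← ENNReal.rpow_natCast, ← ENNReal.rpow_mul]
    norm_num
  have e1 : eLpNorm (𝓕⁻ h : ℝ → ℂ) 2 volume = eLpNorm h 2 volume := by
    rw [← eLpNorm_congr_ae (fourierInv_L2_ae_eq h1 h2), ← Lp.enorm_def]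
    have h0 : ‖(𝓕⁻ (h2.toLp h) : Lp ℂ 2 (volume : Measure ℝ))‖ = ‖h2.toLp h‖ :=
      (Lp.fourierTransformₗᵢ ℝ ℂ).symm.norm_map _
    rw [← ofReal_norm, h0, ofReal_norm, Lp.enorm_def, eLpNorm_congr_ae h2.coeFn_toLp]
  have e2 : ∀ s : ℝ, ∫ τ, cexp (((-(2 * Real.pi * (s * τ)) : ℝ) : ℂ) * I) * h τ =
      (𝓕⁻ h : ℝ → ℂ) (-s) := by
    intro s
    rw [Real.fourierInv_eq']
    refine integral_congr_ae (Eventually.of_forall fun τ => ?_)
    simp only [smul_eq_mul]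
    congr 2
    have : inner ℝ τ (-s) = -(s * τ) := by simp
    rw [this]
    push_cast
    ring
  simp_rw [e2]
  have e3 : ∫⁻ s : ℝ, ‖(𝓕⁻ h : ℝ → ℂ) (-s)‖ₑ ^ 2 = ∫⁻ s : ℝ, ‖(𝓕⁻ h : ℝ → ℂ) s‖ₑ ^ 2 :=
    (Measure.measurePreserving_neg (volume : Measure ℝ)).lintegral_comp_emb
      (MeasurableEquiv.neg ℝ).measurableEmbedding fun s => ‖(𝓕⁻ h : ℝ → ℂ) s‖ₑ ^ 2
  rw [e3, ← key, ← key, e1]

/-- the radial profile as a function on the line -/
noncomputable def pp (G : E n → ℂ) (x : E n) (ρ : ℝ) : ℂ := ext ρ (fun ω => G (ρ • ω.1)) x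

/-- the profile in the variable `τ = ρ ^ 2` -/
noncomputable def hp (G : E n → ℂ) (x : E n) (τ : ℝ) : ℂ :=
  ((√τ ^ (n - 1) / (2 * √τ) : ℝ) : ℂ) * pp G x √τ

lemma image_sq : (fun ρ : ℝ => ρ ^ 2) '' Ioi 0 = Ioi 0 := by
  ext τ
  constructor
  · rintro ⟨ρ, hρ, rfl⟩
    have : (0 : ℝ) < ρ := hρ
    show (0 : ℝ) < ρ ^ 2
    positivity
  · intro hτ
    have h0 : (0 : ℝ) < τ := hτ
    exact ⟨√τ, Real.sqrt_pos.2 h0, Real.sq_sqrt h0.le⟩

lemma injOn_sq : InjOn (fun ρ : ℝ => ρ ^ 2) (Ioi 0) := by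
  intro a ha b hb h
  have h1 : (0 : ℝ) < a := ha
  have h2 : (0 : ℝ) < b := hb
  have h3 : a ^ 2 = b ^ 2 := h
  nlinarith [sq_nonneg (a - b), h3]

lemma deriv_sq : ∀ ρ ∈ Ioi (0 : ℝ), HasDerivWithinAt (fun ρ : ℝ => ρ ^ 2) (2 * ρ) (Ioi 0) ρ := by
  intro ρ _
  have := (hasDerivAt_pow 2 ρ).hasDerivWithinAt (s := Ioi (0 : ℝ))
  simpa using this

lemma evo_line (hn : 1 ≤ n) {G : E n → ℂ} (hG : Integrable G) (x : E n) (s : ℝ) :
    evo G x s 0 = ∫ τ, cexp (((-(2 * Real.pi * (s * τ)) : ℝ) : ℂ) * I) *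
      (Ioi (0 : ℝ)).indicator (hp G x) τ := by
  have e0 : ∀ τ : ℝ, cexp (((-(2 * Real.pi * (s * τ)) : ℝ) : ℂ) * I) *
      (Ioi (0 : ℝ)).indicator (hp G x) τ = (Ioi (0 : ℝ)).indicator
        (fun τ => cexp (((-(2 * Real.pi * (s * τ)) : ℝ) : ℂ) * I) * hp G x τ) τ := by
    intro τ
    by_cases h : τ ∈ Ioi (0 : ℝ)
    · rw [indicator_of_mem h, indicator_of_mem h]
    · rw [indicator_of_notMem h, indicator_of_notMem h, mul_zero]
  simp_rw [e0]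
  rw [integral_indicator measurableSet_Ioi]
  have e1 := integral_image_eq_integral_abs_deriv_smul measurableSet_Ioi deriv_sq injOn_sq
    (fun τ => cexp (((-(2 * Real.pi * (s * τ)) : ℝ) : ℂ) * I) * hp G x τ)
  rw [image_sq] at e1
  rw [e1, evo_eq, int_polar hn (integrable_ph_mul hG x s le_rfl)]
  have e2 : ∀ ρ : Ioi (0 : ℝ), ∫ ω, ph x s 0 (ρ.1 • ω.1) * G (ρ.1 • ω.1) ∂sig n =
      cexp (((-(2 * Real.pi * (s * ρ.1 ^ 2)) : ℝ) : ℂ) * I) * pp G x ρ.1 := by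
    intro ρ
    have e1 : ∀ ω : Sp n, ph x s 0 (ρ.1 • ω.1) * G (ρ.1 • ω.1)
        = cexp (((-(2 * Real.pi * (s * ρ.1 ^ 2)) : ℝ) : ℂ) * I) *
          (os ρ.1 x ω * G (ρ.1 • ω.1)) := by
      intro ω
      have hω : ‖(ω : E n)‖ = 1 := by simp
      rw [← mul_assoc, os, ← Complex.exp_add, ph, norm_smul, hω, mul_one, Real.norm_eq_abs, sq_abs,
        inner_smul_right]
      congr 2
      push_cast
      ring
    simp_rw [e1]
    rw [integral_const_mul]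
    rfl
  simp_rw [e2]
  have e3 : ∫ ρ : Ioi (0 : ℝ), cexp (((-(2 * Real.pi * (s * ρ.1 ^ 2)) : ℝ) : ℂ) * I) *
      pp G x ρ.1 ∂nu n = ∫ ρ : Ioi (0 : ℝ), (kk n ρ).toReal •
        (cexp (((-(2 * Real.pi * (s * ρ.1 ^ 2)) : ℝ) : ℂ) * I) * pp G x ρ.1)
        ∂(Measure.comap Subtype.val (volume : Measure ℝ) : Measure (Ioi (0 : ℝ))) :=
    integral_withDensity_eq_integral_toReal_smul (measurable_kk (n := n))
      (Eventually.of_forall fun ρ => (kk_ne_top ρ).lt_top) _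
  rw [e3]
  have e4 := integral_subtype_comap (μ := (volume : Measure ℝ)) measurableSet_Ioi
    (fun ρ : ℝ => (ENNReal.ofReal (ρ ^ (n - 1))).toReal •
        (cexp (((-(2 * Real.pi * (s * ρ ^ 2)) : ℝ) : ℂ) * I) * pp G x ρ)) (s := Ioi (0 : ℝ))
  rw [show (∫ ρ : Ioi (0 : ℝ), (kk n ρ).toReal •
        (cexp (((-(2 * Real.pi * (s * ρ.1 ^ 2)) : ℝ) : ℂ) * I) * pp G x ρ.1)
        ∂(Measure.comap Subtype.val (volume : Measure ℝ) : Measure (Ioi (0 : ℝ)))) = _ from e4]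
  refine setIntegral_congr_fun measurableSet_Ioi fun ρ hρ => ?_
  have h0 : (0 : ℝ) < ρ := hρ
  simp only [hp]
  rw [Real.sqrt_sq h0.le, ENNReal.toReal_ofReal (by positivity), abs_of_pos (by positivity),
    Complex.real_smul, Complex.real_smul]
  push_cast
  have h1 : (ρ : ℂ) ≠ 0 := by exact_mod_cast h0.ne'
  field_simp

lemma lint_line {G : E n → ℂ} (x : E n) :
    ∫⁻ τ, ‖(Ioi (0 : ℝ)).indicator (hp G x) τ‖ₑ ^ 2 =
      ∫⁻ ρ : Ioi (0 : ℝ), ENNReal.ofReal (2 * ρ.1)⁻¹ * (kk n ρ * ‖pro G x ρ‖ₑ ^ 2) ∂nu n := by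
  have e0 : ∀ τ : ℝ, ‖(Ioi (0 : ℝ)).indicator (hp G x) τ‖ₑ ^ 2 =
      (Ioi (0 : ℝ)).indicator (fun τ => ‖hp G x τ‖ₑ ^ 2) τ := by
    intro τ
    by_cases h : τ ∈ Ioi (0 : ℝ)
    · rw [indicator_of_mem h, indicator_of_mem h]
    · rw [indicator_of_notMem h, indicator_of_notMem h]; simp
  simp_rw [e0]
  rw [lintegral_indicator measurableSet_Ioi]
  have e1 := lintegral_image_eq_lintegral_abs_deriv_mul measurableSet_Ioi deriv_sq injOn_sq
    (fun τ => ‖hp G x τ‖ₑ ^ 2)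
  rw [image_sq] at e1
  rw [e1]
  have e3 : ∫⁻ ρ : Ioi (0 : ℝ), ENNReal.ofReal (2 * ρ.1)⁻¹ * (kk n ρ * ‖pro G x ρ‖ₑ ^ 2) ∂nu n =
      ∫⁻ ρ : Ioi (0 : ℝ), (kk n * fun ρ : Ioi (0 : ℝ) =>
        ENNReal.ofReal (2 * ρ.1)⁻¹ * (kk n ρ * ‖pro G x ρ‖ₑ ^ 2)) ρ
        ∂(Measure.comap Subtype.val (volume : Measure ℝ) : Measure (Ioi (0 : ℝ))) :=
    lintegral_withDensity_eq_lintegral_mul_non_measurable _ (measurable_kk (n := n))
      (Eventually.of_forall fun ρ => (kk_ne_top ρ).lt_top) _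
  rw [e3]
  have e4 := lintegral_subtype_comap (μ := (volume : Measure ℝ)) (s := Ioi (0 : ℝ))
    measurableSet_Ioi (fun ρ : ℝ => ENNReal.ofReal (ρ ^ (n - 1)) *
      (ENNReal.ofReal (2 * ρ)⁻¹ * (ENNReal.ofReal (ρ ^ (n - 1)) * ‖pp G x ρ‖ₑ ^ 2)))
  refine Eq.trans ?_ e4.symm
  refine setLIntegral_congr_fun measurableSet_Ioi fun ρ hρ => ?_
  have h0 : (0 : ℝ) < ρ := hρ
  simp only [hp]
  rw [Real.sqrt_sq h0.le, abs_of_pos (by positivity), enorm_mul, mul_pow]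
  have h1 : ‖((ρ ^ (n - 1) / (2 * ρ) : ℝ) : ℂ)‖ₑ = ENNReal.ofReal (ρ ^ (n - 1) / (2 * ρ)) := by
    rw [← ofReal_norm, Complex.norm_real, Real.norm_eq_abs, abs_of_pos (by positivity)]
  rw [h1, ← ENNReal.ofReal_pow (by positivity), ← mul_assoc, ← mul_assoc, ← mul_assoc,
    ← ENNReal.ofReal_mul (by positivity), ← ENNReal.ofReal_mul (by positivity),
    ← ENNReal.ofReal_mul (by positivity)]
  congr 2
  field_simp

lemma pp_zero {R : ℝ} {G : E n → ℂ} (hs : ∀ η, G η ≠ 0 → R ≤ ‖η‖ ∧ ‖η‖ ≤ 2 * R) (x : E n)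
    {ρ : ℝ} (h0 : 0 < ρ) (h : ¬(R ≤ ρ ∧ ρ ≤ 2 * R)) : pp G x ρ = 0 := by
  have h1 : ∀ ω : Sp n, G (ρ • ω.1) = 0 := by
    intro ω
    by_contra hne
    apply h
    have h2 := hs _ hne
    have h3 : ‖(ρ • ω.1 : E n)‖ = ρ := by
      rw [norm_smul, Real.norm_eq_abs, abs_of_pos h0]
      simp
    rwa [h3] at h2
  unfold pp H831.ext
  simp [h1]

lemma measurable_pp {G : E n → ℂ} (hG : Measurable G) (x : E n) : Measurable (pp G x) := by
  have c1 : Continuous fun q : ℝ × Sp n => os q.1 x q.2 := by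
    unfold os
    fun_prop
  have c2 : Continuous fun q : ℝ × Sp n => (q.1 • q.2.1 : E n) := by
    fun_prop
  have m1 : Measurable fun q : ℝ × Sp n => os q.1 x q.2 * G (q.1 • q.2.1) :=
    c1.measurable.mul (hG.comp c2.measurable)
  exact m1.stronglyMeasurable.integral_prod_right.measurable

lemma memLp_line {R B : ℝ} (hR : 0 < R) {G : E n → ℂ} (hG : Measurable G)
    (hB : ∀ η, ‖G η‖ ≤ B) (hs : ∀ η, G η ≠ 0 → R ≤ ‖η‖ ∧ ‖η‖ ≤ 2 * R) (x : E n) (p : ℝ≥0∞) :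
    MemLp ((Ioi (0 : ℝ)).indicator (hp G x)) p volume := by
  set D : ℝ := (2 * R) ^ (n - 1) / (2 * R) * (B * (sig n).real univ) with hD
  have hg : MemLp ((Icc (R ^ 2) ((2 * R) ^ 2)).indicator fun _ => D) p
      (volume : Measure ℝ) := by
    refine memLp_indicator_const p measurableSet_Icc D (Or.inr ?_)
    rw [Real.volume_Icc]
    exact ENNReal.ofReal_ne_top
  have hm : Measurable ((Ioi (0 : ℝ)).indicator (hp G x)) := by
    refine Measurable.indicator ?_ measurableSet_Ioi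
    unfold hp
    have h1 : Measurable fun τ : ℝ => pp G x √τ :=
      (measurable_pp hG x).comp Real.continuous_sqrt.measurable
    have h2 : Measurable fun τ : ℝ => ((√τ ^ (n - 1) / (2 * √τ) : ℝ) : ℂ) := by fun_prop
    exact h2.mul h1
  refine MemLp.of_le hg hm.aestronglyMeasurable (Eventually.of_forall fun τ => ?_)
  by_cases h : τ ∈ Ioi (0 : ℝ)
  · have h0 : (0 : ℝ) < τ := h
    have hq : 0 < √τ := Real.sqrt_pos.2 h0
    rw [indicator_of_mem h]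
    by_cases h' : R ≤ √τ ∧ √τ ≤ 2 * R
    · have h2 : τ ∈ Icc (R ^ 2) ((2 * R) ^ 2) := by
        rw [← Real.sq_sqrt h0.le]
        exact ⟨pow_le_pow_left₀ hR.le h'.1 2, pow_le_pow_left₀ hq.le h'.2 2⟩
      rw [indicator_of_mem h2, hp, norm_mul, Complex.norm_real]
      have h3 : ‖pp G x √τ‖ ≤ B * (sig n).real univ := norm_ext_le _ (fun ω => hB _) x
      have h4 : ‖√τ ^ (n - 1) / (2 * √τ)‖ ≤ (2 * R) ^ (n - 1) / (2 * R) := by
        rw [Real.norm_eq_abs, abs_of_pos (by positivity)]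
        exact div_le_div₀ (by positivity) (pow_le_pow_left₀ hq.le h'.2 _) (by positivity)
          (by linarith [h'.1])
      exact (mul_le_mul h4 h3 (norm_nonneg _) (by positivity)).trans (le_abs_self D)
    · rw [hp, pp_zero hs x hq h', mul_zero, norm_zero]
      exact norm_nonneg _
  · rw [indicator_of_notMem h, norm_zero]
    exact norm_nonneg _

lemma kato_x {R B : ℝ} (hn : 1 ≤ n) (hR : 0 < R) {G : E n → ℂ} (hG : Measurable G)
    (hB : ∀ η, ‖G η‖ ≤ B) (hs : ∀ η, G η ≠ 0 → R ≤ ‖η‖ ∧ ‖η‖ ≤ 2 * R) (x : E n) :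
    ∫⁻ s : ℝ, ‖evo G x s 0‖ₑ ^ 2 ≤
      ENNReal.ofReal (2 * R)⁻¹ * ∫⁻ ρ, kk n ρ * ‖pro G x ρ‖ₑ ^ 2 ∂nu n := by
  have hi : Integrable G := integrable_of_bdd (R := 2 * R) hG ⟨B, hB⟩ fun η h => (hs η h).2
  have h1 := planch (memLp_one_iff_integrable.1 (memLp_line hR hG hB hs x 1))
    (memLp_line hR hG hB hs x 2)
  simp_rw [evo_line hn hi x]
  rw [h1, lint_line, ← lintegral_const_mul' _ _ ENNReal.ofReal_ne_top]
  refine lintegral_mono fun ρ => ?_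
  have h0 : (0 : ℝ) < ρ.1 := ρ.2
  by_cases h : R ≤ ρ.1
  · gcongr
  · have h2 : pro G x ρ = 0 := pp_zero hs x h0 fun h' => h h'.1
    rw [h2]
    simp

lemma kato_bdd {R B : ℝ} (hn : 1 ≤ n) (hR : 0 < R) {G : E n → ℂ} (hG : Measurable G)
    (hB : ∀ η, ‖G η‖ ≤ B) (hs : ∀ η, G η ≠ 0 → R ≤ ‖η‖ ∧ ‖η‖ ≤ 2 * R) :
    ∫⁻ x : E n, ENNReal.ofReal (Real.exp (-‖x‖ ^ 2)) * ∫⁻ s : ℝ, ‖evo G x s 0‖ₑ ^ 2 ≤
      ENNReal.ofReal (C0 n) * (ENNReal.ofReal R)⁻¹ * ∫⁻ η, ‖G η‖ₑ ^ 2 := by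
  have hjm := measurable_joint (n := n) (v := fun _ => 1) measurable_const hG
  have hjx : Measurable fun x : E n => ∫⁻ ρ, ENNReal.ofReal (Real.exp (-‖x‖ ^ 2)) *
      (1 * kk n ρ * ‖pro G x ρ‖ₑ ^ 2) ∂nu n := hjm.lintegral_prod_right'
  have hR' : ENNReal.ofReal (2 * R)⁻¹ ≤ (ENNReal.ofReal R)⁻¹ := by
    rw [← ENNReal.ofReal_inv_of_pos hR]
    exact ENNReal.ofReal_le_ofReal (inv_anti₀ hR (by linarith))
  calc ∫⁻ x : E n, ENNReal.ofReal (Real.exp (-‖x‖ ^ 2)) * ∫⁻ s : ℝ, ‖evo G x s 0‖ₑ ^ 2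
      ≤ ∫⁻ x : E n, ENNReal.ofReal (Real.exp (-‖x‖ ^ 2)) * (ENNReal.ofReal (2 * R)⁻¹ *
        ∫⁻ ρ, kk n ρ * ‖pro G x ρ‖ₑ ^ 2 ∂nu n) :=
        lintegral_mono fun x => mul_le_mul_right (kato_x hn hR hG hB hs x) _
    _ = ∫⁻ x : E n, ENNReal.ofReal (2 * R)⁻¹ * ∫⁻ ρ, ENNReal.ofReal (Real.exp (-‖x‖ ^ 2)) *
          (1 * kk n ρ * ‖pro G x ρ‖ₑ ^ 2) ∂nu n := by
        refine lintegral_congr fun x => ?_
        have hm : Measurable fun ρ : Ioi (0 : ℝ) => 1 * kk n ρ * ‖pro G x ρ‖ₑ ^ 2 :=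
          (measurable_const.mul measurable_kk).mul
            ((measurable_pro_right hG x).enorm.pow_const 2)
        rw [lintegral_const_mul _ hm]
        simp only [one_mul]
        ring
    _ = ENNReal.ofReal (2 * R)⁻¹ * ∫⁻ ρ, (∫⁻ x : E n, ENNReal.ofReal (Real.exp (-‖x‖ ^ 2)) *
          (1 * kk n ρ * ‖pro G x ρ‖ₑ ^ 2)) ∂nu n := by
        rw [lintegral_const_mul _ hjx]
        congr 1
        exact lintegral_lintegral_swap hjm.aemeasurable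
    _ ≤ ENNReal.ofReal (2 * R)⁻¹ * ∫⁻ ρ, ENNReal.ofReal (C0 n) * (1 * SS G ρ) ∂nu n :=
        mul_le_mul_right (lintegral_mono fun ρ => rad_s3 hn (sphG hn) _ hG hB ρ) _
    _ = ENNReal.ofReal (2 * R)⁻¹ * (ENNReal.ofReal (C0 n) * ∫⁻ η, ‖G η‖ₑ ^ 2) := by
        have h1 := rad_pol (n := n) hn (v := fun _ => 1) measurable_const hG
        simp only [one_mul] at h1 ⊢
        rw [lintegral_const_mul _ (measurable_SS hG), h1]
    _ ≤ _ := by
        calc ENNReal.ofReal (2 * R)⁻¹ * (ENNReal.ofReal (C0 n) * ∫⁻ η, ‖G η‖ₑ ^ 2)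
            ≤ (ENNReal.ofReal R)⁻¹ * (ENNReal.ofReal (C0 n) * ∫⁻ η, ‖G η‖ₑ ^ 2) :=
              mul_le_mul_left hR' _
          _ = _ := by ring

lemma shell_integrable {R : ℝ} {G : E n → ℂ} (hG : Shell R G) : Integrable G := by
  have h2 : MemLp G 2 volume := by
    refine ⟨hG.meas.aestronglyMeasurable, ?_⟩
    rw [eLpNorm_lt_top_iff_lintegral_rpow_enorm_lt_top (by norm_num) (by norm_num)]
    simp only [ENNReal.toReal_ofNat, ENNReal.rpow_ofNat]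
    exact hG.l2.lt_top
  have : IsFiniteMeasure (volume.restrict (Metric.closedBall (0 : E n) (2 * R))) :=
    ⟨by rw [Measure.restrict_apply_univ]; exact measure_closedBall_lt_top⟩
  have h3 : IntegrableOn G (Metric.closedBall (0 : E n) (2 * R)) :=
    (h2.restrict _).integrable one_le_two
  refine (integrableOn_iff_integrable_of_support_subset fun η hη => ?_).1 h3
  rw [mem_closedBall_zero_iff]
  exact (hG.supp η hη).2

/-- truncation of the height -/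
noncomputable def cuth (G : E n → ℂ) (m : ℕ) : E n → ℂ := {η | ‖G η‖ ≤ m}.indicator G

lemma norm_cuth (G : E n → ℂ) (m : ℕ) (η : E n) : ‖cuth G m η‖ ≤ ‖G η‖ := by
  unfold cuth
  exact norm_indicator_le_norm_self _ _

lemma cuth_bdd (G : E n → ℂ) (m : ℕ) (η : E n) : ‖cuth G m η‖ ≤ m := by
  unfold cuth
  by_cases h : η ∈ {η | ‖G η‖ ≤ m}
  · rw [indicator_of_mem h]; exact h
  · rw [indicator_of_notMem h, norm_zero]; positivity

lemma measurable_cuth {G : E n → ℂ} (hG : Measurable G) (m : ℕ) : Measurable (cuth G m) :=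
  hG.indicator (measurableSet_le hG.norm measurable_const)

lemma cuth_supp {G : E n → ℂ} {m : ℕ} {η : E n} (h : cuth G m η ≠ 0) : G η ≠ 0 := by
  intro h0
  apply h
  have := norm_cuth G m η
  rw [h0, norm_zero] at this
  exact norm_le_zero_iff.1 this

lemma tendsto_cuth (G : E n → ℂ) (η : E n) : Tendsto (fun m => cuth G m η) atTop (𝓝 (G η)) := by
  refine tendsto_const_nhds.congr' ?_
  obtain ⟨m₀, hm₀⟩ := exists_nat_ge ‖G η‖
  filter_upwards [eventually_ge_atTop m₀] with m hm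
  have : (m₀ : ℝ) ≤ m := by exact_mod_cast hm
  exact (indicator_of_mem (show η ∈ {η | ‖G η‖ ≤ m} from hm₀.trans this) G).symm

lemma tendsto_evo_cuth {G : E n → ℂ} (hG : Measurable G) (hi : Integrable G) (x : E n) (s : ℝ) :
    Tendsto (fun m => evo (cuth G m) x s 0) atTop (𝓝 (evo G x s 0)) := by
  simp_rw [evo_eq]
  refine tendsto_integral_of_dominated_convergence (fun η => ‖G η‖) ?_ hi.norm ?_ ?_
  · intro m
    exact ((continuous_ph x s 0).measurable.mul (measurable_cuth hG m)).aestronglyMeasurable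
  · refine fun m => Eventually.of_forall fun η => ?_
    rw [norm_mul, norm_ph]
    simpa using norm_cuth G m η
  · exact Eventually.of_forall fun η => (tendsto_cuth G η).const_mul _

/-- Row K. -/
theorem kato (hn : 1 ≤ n) : ∃ C : ℝ≥0∞, C ≠ ⊤ ∧ ∀ (R : ℝ) (G : E n → ℂ), 0 < R → Shell R G →
    ∫⁻ x : E n, ENNReal.ofReal (Real.exp (-‖x‖ ^ 2)) * ∫⁻ s : ℝ, ‖evo G x s 0‖ₑ ^ 2 ≤
      C * (ENNReal.ofReal R)⁻¹ * ∫⁻ η, ‖G η‖ₑ ^ 2 := by
  refine ⟨ENNReal.ofReal (C0 n), ENNReal.ofReal_ne_top, fun R G hR hG => ?_⟩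
  have hi := shell_integrable hG
  have hci : ∀ m, Integrable (cuth G m) := fun m =>
    hi.mono (measurable_cuth hG.meas m).aestronglyMeasurable
      (Eventually.of_forall fun η => norm_cuth G m η)
  have hmeas : ∀ m, Measurable fun q : E n × ℝ => ‖evo (cuth G m) q.1 q.2 0‖ₑ ^ 2 := fun m =>
    (continuous_evo (hci m)).measurable.enorm.pow_const 2
  have hmx : ∀ m, Measurable fun x : E n => ∫⁻ s : ℝ, ‖evo (cuth G m) x s 0‖ₑ ^ 2 := fun m =>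
    (hmeas m).lintegral_prod_right'
  have h1 : ∀ x : E n, ∫⁻ s : ℝ, ‖evo G x s 0‖ₑ ^ 2 ≤
      liminf (fun m => ∫⁻ s : ℝ, ‖evo (cuth G m) x s 0‖ₑ ^ 2) atTop := by
    intro x
    have h2 : ∀ s : ℝ, ‖evo G x s 0‖ₑ ^ 2 =
        liminf (fun m => ‖evo (cuth G m) x s 0‖ₑ ^ 2) atTop := by
      intro s
      refine (Tendsto.liminf_eq ?_).symm
      exact ((ENNReal.continuous_pow 2).tendsto _).comp
        ((continuous_enorm.tendsto _).comp (tendsto_evo_cuth hG.meas hi x s))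
    rw [lintegral_congr h2]
    exact lintegral_liminf_le (f := fun m s => ‖evo (cuth G m) x s 0‖ₑ ^ 2)
      fun m => (continuous_evo_s (hci m) x).measurable.enorm.pow_const 2
  have h3 : ∫⁻ x : E n, ENNReal.ofReal (Real.exp (-‖x‖ ^ 2)) * ∫⁻ s : ℝ, ‖evo G x s 0‖ₑ ^ 2 ≤
      ∫⁻ x : E n, liminf (fun m => ENNReal.ofReal (Real.exp (-‖x‖ ^ 2)) *
        ∫⁻ s : ℝ, ‖evo (cuth G m) x s 0‖ₑ ^ 2) atTop := by
    refine lintegral_mono fun x => ?_
    refine (mul_le_mul_right (h1 x) _).trans (le_of_eq ?_)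
    exact (ENNReal.liminf_const_mul_of_ne_top ENNReal.ofReal_ne_top).symm
  refine h3.trans ((lintegral_liminf_le fun m => measurable_W.mul (hmx m)).trans ?_)
  refine liminf_le_of_le (by isBoundedDefault) fun b hb => ?_
  obtain ⟨m, hm⟩ := hb.exists
  refine hm.trans ((kato_bdd hn hR (measurable_cuth hG.meas m) (cuth_bdd G m)
    fun η h => hG.supp η (cuth_supp h)).trans ?_)
  gcongr with η
  exact enorm_le_iff_norm_le.2 (norm_cuth G m η)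

end Vale.Agent.P076.R2.H64
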